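import Vale.Agent.P245.Bdl.B2

/-!
# P245: integration over a scale parameter and `EY`

`Φ s y` jointly continuous on `(0, ∞) × R^n`: `s ↦ EY μ b (Φ s)` is continuous; Tonelli between the
scale integral and `EY`.
-/

set_option linter.unusedSectionVars false

open MeasureTheory Real Set Filter Topology

noncomputable section

namespace Vale.Agent.P245.H862

open Vale.Agent.P245.LS Vale.Agent.P245.LS.Down Vale.Agent.P245.E1

variable {n : ℕ} {μ : Measure (Fin n → ℝ)} [IsProbabilityMeasure μ] {R b c : ℝ}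
  {Φ : ℝ → (Fin n → ℝ) → ℝ} {G : (Fin n → ℝ) → ℝ}

/-- continuity in the scale -/
theorem EYs_cont (hμ : CSupp μ R) (b : ℝ) (hΦ : UE (Ioi 0) Φ) :
    ContinuousOn (fun s => EY μ b (Φ s)) (Ioi 0) := by
  intro s hs
  have hs0 : (0 : ℝ) < s := hs
  obtain ⟨K, hK0, hK⟩ := hΦ.2 (s / 2) (2 * s) fun x hx => (by
    have := hx.1
    show (0 : ℝ) < x
    linarith)
  have hN : Icc (s / 2) (2 * s) ∈ 𝓝 s := Icc_mem_nhds (by linarith) (by linarith)
  have hcongr : (fun s => EY μ b (Φ s)) =ᶠ[𝓝[Ioi 0] s]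
      fun s => ∫ w, Φ s (w.1 + √b • w.2) ∂(μ.prod (gsn n)) := by
    filter_upwards [self_mem_nhdsWithin] with τ hτ
    exact EY_eq_prod hμ (hΦ.cont hτ) (hΦ.eg1 hτ) b
  refine ContinuousWithinAt.congr_of_eventuallyEq ?_ hcongr
    (EY_eq_prod hμ (hΦ.cont hs) (hΦ.eg1 hs) b)
  have hbint : Integrable (fun w : (Fin n → ℝ) × (Fin n → ℝ) =>
      (K * exp (K * (n * R))) * exp ((K * √b) * ∑ i, |w.2 i|)) (μ.prod (gsn n)) :=
    ((integrable_exp_abs (n := n) (K * √b)).const_mul _).comp_snd μ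
  refine continuousWithinAt_of_dominated (bound := fun w : (Fin n → ℝ) × (Fin n → ℝ) =>
      (K * exp (K * (n * R))) * exp ((K * √b) * ∑ i, |w.2 i|)) ?_ ?_ hbint ?_
  · filter_upwards [self_mem_nhdsWithin] with τ hτ
    exact ((hΦ.cont hτ).comp (by fun_prop)).aestronglyMeasurable
  · filter_upwards [mem_nhdsWithin_of_mem_nhds hN] with τ hτ
    filter_upwards [ae_fst hμ] with w hw
    have hsq : |√b| ≤ √b := by rw [abs_of_nonneg (Real.sqrt_nonneg _)]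
    rw [norm_eq_abs]
    exact (hK τ hτ _).trans (exp_path_le hw hK0 hsq)
  · refine Eventually.of_forall fun w => ?_
    have h2 : Continuous (fun τ : ℝ => ((τ, w.1 + √b • w.2) : ℝ × (Fin n → ℝ))) := by fun_prop
    exact (hΦ.1 (s, w.1 + √b • w.2) ⟨hs, mem_univ _⟩).comp
      (f := fun τ : ℝ => ((τ, w.1 + √b • w.2) : ℝ × (Fin n → ℝ)))
      (g := fun p : ℝ × (Fin n → ℝ) => Φ p.1 p.2) h2.continuousWithinAt
      (fun τ hτ => ⟨hτ, mem_univ _⟩)

/-- the integrability on the product -/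
theorem ton_int (hμ : CSupp μ R) (b : ℝ)
    (hc : ContinuousOn (fun p : ℝ × (Fin n → ℝ) => Φ p.1 p.2) (Ioi 0 ×ˢ univ))
    (h0 : ∀ s ∈ Ioc 0 c, ∀ y, 0 ≤ Φ s y)
    (hi : ∀ y, IntegrableOn (fun s => Φ s y) (Ioc 0 c))
    (hG : Continuous G) (hGe : EG1 G) (hle : ∀ y, ∫ s in Ioc 0 c, Φ s y ≤ G y) :
    Integrable (fun p : ℝ × ((Fin n → ℝ) × (Fin n → ℝ)) => Φ p.1 (p.2.1 + √b • p.2.2))
      ((volume.restrict (Ioc 0 c)).prod (μ.prod (gsn n))) := by
  have hm : AEStronglyMeasurable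
      (fun p : ℝ × ((Fin n → ℝ) × (Fin n → ℝ)) => Φ p.1 (p.2.1 + √b • p.2.2))
      ((volume.restrict (Ioc 0 c)).prod (μ.prod (gsn n))) := by
    have e : (volume.restrict (Ioc 0 c)).prod (μ.prod (gsn n))
        = (volume.prod (μ.prod (gsn n))).restrict (Ioc 0 c ×ˢ univ) := by
      rw [← Measure.prod_restrict, Measure.restrict_univ]
    rw [e]
    refine ContinuousOn.aestronglyMeasurable ?_ (measurableSet_Ioc.prod MeasurableSet.univ)
    refine hc.comp (f := fun p : ℝ × ((Fin n → ℝ) × (Fin n → ℝ)) =>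
      ((p.1, p.2.1 + √b • p.2.2) : ℝ × (Fin n → ℝ))) (by fun_prop) fun p hp => ?_
    exact ⟨hp.1.1, mem_univ _⟩
  rw [integrable_prod_iff' hm]
  refine ⟨Eventually.of_forall fun w => hi (w.1 + √b • w.2), ?_⟩
  have hGi : Integrable (fun w : (Fin n → ℝ) × (Fin n → ℝ) => G (w.1 + √b • w.2))
      (μ.prod (gsn n)) := hGe.int_prod hμ hG _
  refine hGi.mono' hm.norm.prod_swap.integral_prod_right' (Eventually.of_forall fun w => ?_)
  have e : ∫ s, ‖Φ s (w.1 + √b • w.2)‖ ∂(volume.restrict (Ioc 0 c))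
      = ∫ s in Ioc 0 c, Φ s (w.1 + √b • w.2) := by
    refine setIntegral_congr_fun measurableSet_Ioc fun s hs => ?_
    rw [norm_eq_abs, abs_of_nonneg (h0 s hs _)]
  rw [e, norm_eq_abs, abs_of_nonneg (setIntegral_nonneg measurableSet_Ioc fun s hs => h0 s hs _)]
  exact hle _

theorem ton_core (hμ : CSupp μ R) (b : ℝ)
    (hc : ContinuousOn (fun p : ℝ × (Fin n → ℝ) => Φ p.1 p.2) (Ioi 0 ×ˢ univ))
    (he : ∀ s ∈ Ioc 0 c, EG1 (Φ s))
    (h0 : ∀ s ∈ Ioc 0 c, ∀ y, 0 ≤ Φ s y)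
    (hi : ∀ y, IntegrableOn (fun s => Φ s y) (Ioc 0 c))
    (hG : Continuous G) (hGe : EG1 G) (hle : ∀ y, ∫ s in Ioc 0 c, Φ s y ≤ G y) :
    IntegrableOn (fun s => EY μ b (Φ s)) (Ioc 0 c) ∧
      ∫ s in Ioc 0 c, EY μ b (Φ s)
        = ∫ w, (∫ s in Ioc 0 c, Φ s (w.1 + √b • w.2)) ∂(μ.prod (gsn n)) := by
  have hint := ton_int hμ b hc h0 hi hG hGe hle
  have hcont : ∀ s ∈ Ioc 0 c, Continuous (Φ s) := fun s hs => by
    have h1 : ContinuousOn (fun y : Fin n → ℝ => Φ s y) univ :=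
      hc.comp (f := fun y : Fin n → ℝ => ((s, y) : ℝ × (Fin n → ℝ))) (by fun_prop)
        fun y _ => ⟨hs.1, mem_univ _⟩
    exact continuousOn_univ.1 h1
  have hEY : ∀ s ∈ Ioc 0 c, EY μ b (Φ s) = ∫ w, Φ s (w.1 + √b • w.2) ∂(μ.prod (gsn n)) :=
    fun s hs => EY_eq_prod hμ (hcont s hs) (he s hs) b
  constructor
  · have h1 : IntegrableOn (fun s => ∫ w, Φ s (w.1 + √b • w.2) ∂(μ.prod (gsn n))) (Ioc 0 c) :=
      hint.integral_prod_left
    exact (integrableOn_congr_fun hEY measurableSet_Ioc).2 h1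
  · rw [setIntegral_congr_fun measurableSet_Ioc hEY]
    exact integral_integral_swap hint

/-- **Tonelli, inequality** -/
theorem ton_le (hμ : CSupp μ R) (b : ℝ) (hc0 : 0 ≤ c)
    (hc : ContinuousOn (fun p : ℝ × (Fin n → ℝ) => Φ p.1 p.2) (Ioi 0 ×ˢ univ))
    (he : ∀ s ∈ Ioc 0 c, EG1 (Φ s))
    (h0 : ∀ s ∈ Ioc 0 c, ∀ y, 0 ≤ Φ s y)
    (hi : ∀ y, IntervalIntegrable (fun s => Φ s y) volume 0 c)
    (hG : Continuous G) (hGe : EG1 G) (hle : ∀ y, ∫ s in (0 : ℝ)..c, Φ s y ≤ G y) :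
    IntervalIntegrable (fun s => EY μ b (Φ s)) volume 0 c ∧
      ∫ s in (0 : ℝ)..c, EY μ b (Φ s) ≤ EY μ b G := by
  have hi' : ∀ y, IntegrableOn (fun s => Φ s y) (Ioc 0 c) := fun y =>
    (intervalIntegrable_iff_integrableOn_Ioc_of_le hc0).1 (hi y)
  have hle' : ∀ y, ∫ s in Ioc 0 c, Φ s y ≤ G y := fun y => by
    rw [← intervalIntegral.integral_of_le hc0]; exact hle y
  obtain ⟨h1, h2⟩ := ton_core hμ b hc he h0 hi' hG hGe hle'
  refine ⟨(intervalIntegrable_iff_integrableOn_Ioc_of_le hc0).2 h1, ?_⟩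
  rw [intervalIntegral.integral_of_le hc0, h2, EY_eq_prod hμ hG hGe b]
  have hint := ton_int hμ b hc h0 hi' hG hGe hle'
  refine integral_mono_of_nonneg (Eventually.of_forall fun w =>
    setIntegral_nonneg measurableSet_Ioc fun s hs => h0 s hs _) (hGe.int_prod hμ hG _)
    (Eventually.of_forall fun w => hle' _)

/-- **Tonelli, equality** -/
theorem ton_eq (hμ : CSupp μ R) (b : ℝ) (hc0 : 0 ≤ c)
    (hc : ContinuousOn (fun p : ℝ × (Fin n → ℝ) => Φ p.1 p.2) (Ioi 0 ×ˢ univ))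
    (he : ∀ s ∈ Ioc 0 c, EG1 (Φ s))
    (h0 : ∀ s ∈ Ioc 0 c, ∀ y, 0 ≤ Φ s y)
    (hi : ∀ y, IntervalIntegrable (fun s => Φ s y) volume 0 c)
    (hG : Continuous G) (hGe : EG1 G) (heq : ∀ y, ∫ s in (0 : ℝ)..c, Φ s y = G y) :
    IntervalIntegrable (fun s => EY μ b (Φ s)) volume 0 c ∧
      ∫ s in (0 : ℝ)..c, EY μ b (Φ s) = EY μ b G := by
  have hi' : ∀ y, IntegrableOn (fun s => Φ s y) (Ioc 0 c) := fun y =>
    (intervalIntegrable_iff_integrableOn_Ioc_of_le hc0).1 (hi y)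
  have heq' : ∀ y, ∫ s in Ioc 0 c, Φ s y = G y := fun y => by
    rw [← intervalIntegral.integral_of_le hc0]; exact heq y
  obtain ⟨h1, h2⟩ := ton_core hμ b hc he h0 hi' hG hGe fun y => (heq' y).le
  refine ⟨(intervalIntegrable_iff_integrableOn_Ioc_of_le hc0).2 h1, ?_⟩
  rw [intervalIntegral.integral_of_le hc0, h2, EY_eq_prod hμ hG hGe b]
  exact integral_congr_ae (Eventually.of_forall fun w => heq' _)

end Vale.Agent.P245.H862
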