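import Vale.Agent.P254.SP.H620.DK

/-!
# P245, row TID: functional calculus of symmetric matrices, further facts

`dmf F F1 A X` is the Daleckii-Krein derivative of `A ↦ F(A)` in direction `X`, independent of the
spectral decomposition; bounds, trace formulas, continuity.
-/

open Matrix Finset Polynomial Filter Topology

noncomputable section

namespace Vale.Agent.P245.H862

open Vale.Agent.P254.S130 Vale.Agent.P254.SP620

variable {ι : Type*} [Fintype ι] [DecidableEq ι]

/-! ### linearity of `DK` -/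

omit [DecidableEq ι] in
theorem DK_entry (F F' : ℝ → ℝ) (U : Matrix ι ι ℝ) (m : ι → ℝ) (X : Matrix ι ι ℝ) (i j : ι) :
    DK F F' U m X i j = ∑ k, ∑ l, (U i k * U j l * dd F F' (m k) (m l)) *
      ∑ a, ∑ b, (U a k * U b l) * X a b := by
  unfold DK
  rw [conj_entry]
  refine Finset.sum_congr rfl fun k _ => Finset.sum_congr rfl fun l _ => ?_
  rw [of_apply, conjT_entry]
  simp only [Finset.mul_sum, Finset.sum_mul]
  refine Finset.sum_congr rfl fun a _ => Finset.sum_congr rfl fun b _ => ?_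
  ring

omit [DecidableEq ι] in
theorem DK_add (F F' : ℝ → ℝ) (U : Matrix ι ι ℝ) (m : ι → ℝ) (X Y : Matrix ι ι ℝ) :
    DK F F' U m (X + Y) = DK F F' U m X + DK F F' U m Y := by
  ext i j
  rw [Matrix.add_apply]
  simp only [DK_entry, Matrix.add_apply, mul_add, Finset.sum_add_distrib]

omit [DecidableEq ι] in
theorem DK_smul (F F' : ℝ → ℝ) (U : Matrix ι ι ℝ) (m : ι → ℝ) (c : ℝ) (X : Matrix ι ι ℝ) :
    DK F F' U m (c • X) = c • DK F F' U m X := by
  ext i j
  rw [Matrix.smul_apply, smul_eq_mul]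
  simp only [DK_entry, Matrix.smul_apply, smul_eq_mul]
  simp only [Finset.mul_sum]
  refine Finset.sum_congr rfl fun k _ => Finset.sum_congr rfl fun l _ =>
    Finset.sum_congr rfl fun a _ => Finset.sum_congr rfl fun b _ => ?_
  ring

omit [DecidableEq ι] in
theorem DK_zero (F F' : ℝ → ℝ) (U : Matrix ι ι ℝ) (m : ι → ℝ) :
    DK F F' U m 0 = 0 := by
  have := DK_smul F F' U m 0 (0 : Matrix ι ι ℝ)
  simpa using this

omit [DecidableEq ι] in
theorem DK_sum (F F' : ℝ → ℝ) (U : Matrix ι ι ℝ) (m : ι → ℝ) {α : Type*} (s : Finset α)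
    (X : α → Matrix ι ι ℝ) : DK F F' U m (∑ a ∈ s, X a) = ∑ a ∈ s, DK F F' U m (X a) := by
  classical
  induction s using Finset.induction_on with
  | empty => simpa using DK_zero F F' U m
  | insert i s hi ih => rw [Finset.sum_insert hi, Finset.sum_insert hi, DK_add, ih]

/-! ### independence of the decomposition -/

theorem DK_indep {A U V : Matrix ι ι ℝ} {a b : ι → ℝ} (hA : Dec A U a) (hB : Dec A V b)
    (F F' : ℝ → ℝ) (X : Matrix ι ι ℝ) : DK F F' U a X = DK F F' V b X := by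
  set W : Matrix ι ι ℝ := Uᵀ * V with hW
  have hz : ∀ i k, (a i - b k) * W i k = 0 := by
    intro i k
    have h1 := mixed_id hA hB i k
    rw [sub_self, Matrix.mul_zero, Matrix.zero_mul, Matrix.zero_apply] at h1
    exact h1.symm
  have hX : Uᵀ * X * U = W * (Vᵀ * X * V) * Wᵀ := by
    rw [hW, transpose_mul, transpose_transpose]
    calc Uᵀ * X * U = Uᵀ * (V * Vᵀ) * X * (V * Vᵀ) * U := by
          rw [hB.orth', Matrix.mul_one, Matrix.mul_one]
      _ = _ := by simp only [Matrix.mul_assoc]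
  have key : Uᵀ * DK F F' V b X * U = of fun i j => dd F F' (a i) (a j) * (Uᵀ * X * U) i j := by
    have e1 : Uᵀ * DK F F' V b X * U
        = W * (of fun k l => dd F F' (b k) (b l) * (Vᵀ * X * V) k l) * Wᵀ := by
      unfold DK
      rw [hW, transpose_mul, transpose_transpose]
      simp only [Matrix.mul_assoc]
    rw [e1]
    ext i j
    rw [of_apply, hX, conj_entry, conj_entry, Finset.mul_sum]
    refine Finset.sum_congr rfl fun k _ => ?_
    rw [Finset.mul_sum]
    refine Finset.sum_congr rfl fun l _ => ?_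
    rw [of_apply]
    rcases mul_eq_zero.1 (hz i k) with h1 | h1
    · rcases mul_eq_zero.1 (hz j l) with h2 | h2
      · rw [sub_eq_zero.1 h1, sub_eq_zero.1 h2]; ring
      · rw [h2]; ring
    · rw [h1]; ring
  have h2 : DK F F' V b X = U * (Uᵀ * DK F F' V b X * U) * Uᵀ := by
    calc DK F F' V b X = (U * Uᵀ) * DK F F' V b X * (U * Uᵀ) := by
          rw [hA.orth', Matrix.one_mul, Matrix.mul_one]
      _ = _ := by simp only [Matrix.mul_assoc]
  rw [h2, key]
  rfl

open Classical in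
/-- the Daleckii-Krein derivative of `A ↦ F(A)` in direction `X` (`F1` the derivative of `F`;
junk value `0` if `A` is not symmetric) -/
def dmf (F F1 : ℝ → ℝ) (A X : Matrix ι ι ℝ) : Matrix ι ι ℝ :=
  if h : ∃ q : Matrix ι ι ℝ × (ι → ℝ), Dec A q.1 q.2 then DK F F1 h.choose.1 h.choose.2 X else 0

theorem dmf_eq {A U : Matrix ι ι ℝ} {m : ι → ℝ} (h : Dec A U m) (F F1 : ℝ → ℝ)
    (X : Matrix ι ι ℝ) : dmf F F1 A X = DK F F1 U m X := by
  have h0 : ∃ q : Matrix ι ι ℝ × (ι → ℝ), Dec A q.1 q.2 := ⟨(U, m), h⟩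
  unfold dmf
  rw [dif_pos h0]
  exact DK_indep h0.choose_spec h F F1 X

theorem dmf_add (F F1 : ℝ → ℝ) (A X Y : Matrix ι ι ℝ) :
    dmf F F1 A (X + Y) = dmf F F1 A X + dmf F F1 A Y := by
  unfold dmf
  split_ifs
  · exact DK_add ..
  · simp

theorem dmf_smul (F F1 : ℝ → ℝ) (A : Matrix ι ι ℝ) (c : ℝ) (X : Matrix ι ι ℝ) :
    dmf F F1 A (c • X) = c • dmf F F1 A X := by
  unfold dmf
  split_ifs
  · exact DK_smul ..
  · simp

theorem dmf_zero (F F1 : ℝ → ℝ) (A : Matrix ι ι ℝ) : dmf F F1 A 0 = 0 := by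
  have := dmf_smul F F1 A 0 (0 : Matrix ι ι ℝ)
  simpa using this

theorem dmf_sum (F F1 : ℝ → ℝ) (A : Matrix ι ι ℝ) {α : Type*} (s : Finset α)
    (X : α → Matrix ι ι ℝ) : dmf F F1 A (∑ a ∈ s, X a) = ∑ a ∈ s, dmf F F1 A (X a) := by
  classical
  induction s using Finset.induction_on with
  | empty => simpa using dmf_zero F F1 A
  | insert i s hi ih => rw [Finset.sum_insert hi, Finset.sum_insert hi, dmf_add, ih]

/-! ### eigenvalues and the Frobenius norm -/

theorem Dec_fr {A U : Matrix ι ι ℝ} {m : ι → ℝ} (h : Dec A U m) : fr A = ∑ i, m i ^ 2 := by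
  have h1 : Uᵀ * A * U = diagonal m := by
    rw [h.eq]
    calc Uᵀ * (U * diagonal m * Uᵀ) * U = (Uᵀ * U) * diagonal m * (Uᵀ * U) := by
          simp only [Matrix.mul_assoc]
      _ = _ := by rw [h.orth, Matrix.one_mul, Matrix.mul_one]
  rw [← fr_orth h.orth h.orth A, h1, fr]
  refine Finset.sum_congr rfl fun i _ => ?_
  rw [Finset.sum_eq_single i]
  · rw [diagonal_apply_eq]
  · intro j _ hj
    rw [diagonal_apply_ne _ (Ne.symm hj)]
    ring
  · intro hi
    exact absurd (Finset.mem_univ i) hi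

theorem eig_sq_le {A U : Matrix ι ι ℝ} {m : ι → ℝ} (h : Dec A U m) (i : ι) : m i ^ 2 ≤ fr A := by
  rw [Dec_fr h]
  exact Finset.single_le_sum (f := fun i => m i ^ 2) (fun j _ => sq_nonneg _) (Finset.mem_univ i)

theorem eig_mem {A U : Matrix ι ι ℝ} {m : ι → ℝ} (h : Dec A U m) {C : ℝ} (hC : 0 ≤ C)
    (hA : fr A ≤ C ^ 2) (i : ι) : m i ∈ Set.Icc (-C) C :=
  abs_le.1 (abs_le_of_sq_le_sq ((eig_sq_le h i).trans hA) hC)

/-! ### bounds -/

variable {F F1 : ℝ → ℝ} {L : ℝ}

theorem fr_dmf_le (hF : ∀ x, HasDerivAt F (F1 x) x) (hL : ∀ x, |F1 x| ≤ L)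
    (A X : Matrix ι ι ℝ) : fr (dmf F F1 A X) ≤ L ^ 2 * fr X := by
  unfold dmf
  split_ifs with h
  · have hd := h.choose_spec
    set U := h.choose.1
    set m := h.choose.2
    set C := ∑ i, |m i| with hC
    have hm : ∀ i, m i ∈ Set.Icc (-C) C := fun i =>
      abs_le.1 (Finset.single_le_sum (f := fun i => |m i|) (fun j _ => abs_nonneg _)
        (Finset.mem_univ i))
    refine fr_DK_le hd.orth (fun i j => ?_) X
    exact dd_bdd (a := -C) (b := C) (fun x _ => (hF x).hasDerivWithinAt) (fun x _ => hL x)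
      (hm i) (hm j)
  · have : fr (0 : Matrix ι ι ℝ) = 0 := by simp [fr]
    rw [this]
    exact mul_nonneg (sq_nonneg _) (fr_nonneg X)

/-- trace of the derivative -/
theorem trace_dmf {A : Matrix ι ι ℝ} (hA : Aᵀ = A) (Φ F : ℝ → ℝ) (X : Matrix ι ι ℝ) :
    (dmf Φ F A X).trace = (mf F A * X).trace := by
  obtain ⟨U, m, h⟩ := exists_dec hA
  rw [dmf_eq h, h.mf_eq]
  have e1 : (DK Φ F U m X).trace = ∑ i, F (m i) * (Uᵀ * X * U) i i := by
    unfold DK
    rw [trace_mul_comm, ← Matrix.mul_assoc, h.orth, Matrix.one_mul, Matrix.trace]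
    refine Finset.sum_congr rfl fun i _ => ?_
    rw [diag_apply, of_apply, dd, if_pos rfl]
  rw [e1]
  have e2 : (U * diagonal (fun i => F (m i)) * Uᵀ * X).trace
      = (diagonal (fun i => F (m i)) * (Uᵀ * X * U)).trace := by
    rw [Matrix.mul_assoc, Matrix.mul_assoc, trace_mul_comm]
    simp only [Matrix.mul_assoc]
  rw [e2, Matrix.trace]
  refine Finset.sum_congr rfl fun i _ => ?_
  rw [diag_apply, diagonal_mul]

/-- the quadratic form of the derivative in the eigenframe -/
theorem trace_dmf_mul {A U : Matrix ι ι ℝ} {m : ι → ℝ} (h : Dec A U m) (F F1 : ℝ → ℝ)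
    {X : Matrix ι ι ℝ} (hX : Xᵀ = X) :
    (dmf F F1 A X * X).trace = ∑ i, ∑ j, dd F F1 (m i) (m j) * (Uᵀ * X * U) i j ^ 2 := by
  rw [dmf_eq h]
  have e1 : (DK F F1 U m X * X).trace = ((Uᵀ * DK F F1 U m X * U) * (Uᵀ * X * U)).trace := by
    have : (Uᵀ * DK F F1 U m X * U) * (Uᵀ * X * U) = Uᵀ * (DK F F1 U m X * (U * Uᵀ) * X * U) := by
      simp only [Matrix.mul_assoc]
    rw [this, h.orth', Matrix.mul_one, trace_mul_comm Uᵀ]
    have e : DK F F1 U m X * X * U * Uᵀ = DK F F1 U m X * X * (U * Uᵀ) := by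
      simp only [Matrix.mul_assoc]
    rw [e, h.orth', Matrix.mul_one]
  rw [e1, Matrix.trace]
  refine Finset.sum_congr rfl fun i _ => ?_
  rw [diag_apply, Matrix.mul_apply]
  refine Finset.sum_congr rfl fun j _ => ?_
  have hs : (Uᵀ * X * U) j i = (Uᵀ * X * U) i j := by
    have : (Uᵀ * X * U)ᵀ = Uᵀ * X * U := by
      rw [transpose_mul, transpose_mul, transpose_transpose, hX]
      simp only [Matrix.mul_assoc]
    calc (Uᵀ * X * U) j i = (Uᵀ * X * U)ᵀ i j := rfl
      _ = _ := by rw [this]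
  rw [DK_frame h.orth, hs]
  ring

/-! ### continuity -/

section cont

variable {Z : Type*} [TopologicalSpace Z] {S : Set Z} {A X : Z → Matrix ι ι ℝ} {z : Z}

theorem cw_sum {α : Type*} {s : Finset α} {f : α → Z → ℝ}
    (h : ∀ i ∈ s, ContinuousWithinAt (f i) S z) :
    ContinuousWithinAt (fun z => ∑ i ∈ s, f i z) S z := tendsto_finsetSum _ h

theorem cont_dpow (hA : ∀ i j, ContinuousWithinAt (fun z => A z i j) S z)
    (hX : ∀ i j, ContinuousWithinAt (fun z => X z i j) S z) (k : ℕ) :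
    (∀ i j, ContinuousWithinAt (fun z => (A z ^ k) i j) S z) ∧
      ∀ i j, ContinuousWithinAt (fun z => dpow (A z) (X z) k i j) S z := by
  induction k with
  | zero =>
    refine ⟨fun i j => ?_, fun i j => ?_⟩
    · simp only [pow_zero]; exact continuousWithinAt_const
    · simp only [dpow]; exact continuousWithinAt_const
  | succ k ih =>
    refine ⟨fun i j => ?_, fun i j => ?_⟩
    · simp only [pow_succ, mul_apply]
      exact cw_sum fun l _ => (ih.1 i l).mul (hA l j)
    · simp only [dpow, Matrix.add_apply, mul_apply]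
      exact (cw_sum fun l _ => (ih.2 i l).mul (hA l j)).add
        (cw_sum fun l _ => (ih.1 i l).mul (hX l j))

theorem cont_Dp (hA : ∀ i j, ContinuousWithinAt (fun z => A z i j) S z)
    (hX : ∀ i j, ContinuousWithinAt (fun z => X z i j) S z) (p : ℝ[X]) (i j : ι) :
    ContinuousWithinAt (fun z => Dp p (A z) (X z) i j) S z := by
  have e : ∀ z, Dp p (A z) (X z) i j
      = ∑ k ∈ range (p.natDegree + 1), p.coeff k * dpow (A z) (X z) k i j := by
    intro z
    unfold Dp
    rw [Polynomial.sum_over_range]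
    · simp only [Matrix.sum_apply, Matrix.smul_apply, smul_eq_mul]
    · intro k
      exact zero_smul _ _
  simp only [e]
  exact cw_sum fun k _ => continuousWithinAt_const.mul ((cont_dpow hA hX k).2 i j)

theorem bdd_near (hA : ∀ i j, ContinuousWithinAt (fun z => A z i j) S z) :
    ∃ C, 0 ≤ C ∧ ∀ᶠ y in 𝓝[S] z, fr (A y) ≤ C ^ 2 := by
  have h1 : ContinuousWithinAt (fun z => fr (A z)) S z := by
    unfold fr
    exact cw_sum fun i _ => cw_sum fun j _ =>
      (hA i j).pow 2
  refine ⟨fr (A z) + 1, by linarith [fr_nonneg (A z)], ?_⟩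
  have h2 := h1.eventually (gt_mem_nhds (show fr (A z) < fr (A z) + 1 by linarith))
  filter_upwards [h2] with y hy
  have := fr_nonneg (A z)
  nlinarith

/-- joint continuity of the Daleckii-Krein derivative -/
theorem cont_dmf (hF : ∀ x, HasDerivAt F (F1 x) x) (hF1 : Continuous F1)
    (hA : ∀ i j, ContinuousWithinAt (fun z => A z i j) S z)
    (hX : ∀ i j, ContinuousWithinAt (fun z => X z i j) S z) (hs : ∀ y ∈ S, (A y)ᵀ = A y)
    (hz : z ∈ S) (i j : ι) :
    ContinuousWithinAt (fun z => dmf F F1 (A z) (X z) i j) S z := by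
  obtain ⟨C, hC0, hC⟩ := bdd_near hA
  obtain ⟨M, hM0, hM⟩ := bdd_near hX
  rw [Metric.continuousWithinAt_iff']
  intro ε hε
  set δ : ℝ := ε / (3 * (M + 1)) with hδ
  have hδ0 : 0 < δ := by positivity
  have hFi : ∀ x ∈ Set.Icc (-C) C, HasDerivWithinAt F (F1 x) (Set.Icc (-C) C) x :=
    fun x _ => (hF x).hasDerivWithinAt
  obtain ⟨p, -, hp⟩ := exists_poly (by linarith : -C ≤ C) hFi hF1.continuousOn hδ0
  have hP : ∀ x ∈ Set.Icc (-C) C, HasDerivWithinAt (fun t => p.eval t) ((derivative p).eval x)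
      (Set.Icc (-C) C) x := fun x _ => (p.hasDerivAt x).hasDerivWithinAt
  have hclose : ∀ y ∈ S, fr (A y) ≤ C ^ 2 → fr (X y) ≤ M ^ 2 →
      |dmf F F1 (A y) (X y) i j - Dp p (A y) (X y) i j| ≤ δ * M := by
    intro y hy h1 h2
    obtain ⟨U, m, hU⟩ := exists_dec (hs y hy)
    have hm := eig_mem hU hC0 h1
    have hb : ∀ i j, |dd F F1 (m i) (m j)
        - dd (fun t => p.eval t) (fun t => (derivative p).eval t) (m i) (m j)| ≤ δ := by
      intro i j
      rw [abs_sub_comm]
      exact dd_close hFi hP hp (hm i) (hm j)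
    have h3 := fr_DK_sub_le hU.orth hb (X y)
    have h4 : fr (DK F F1 U m (X y) - DK (fun t => p.eval t) (fun t => (derivative p).eval t) U m
        (X y)) ≤ (δ * M) ^ 2 := by
      rw [mul_pow]
      exact h3.trans (mul_le_mul_of_nonneg_left h2 (sq_nonneg _))
    have h5 := entry_le (by positivity) h4 i j
    rw [dmf_eq hU, Dp_eq_DK hU]
    rwa [Matrix.sub_apply] at h5
  have hδM : δ * M < ε / 3 := by
    rw [hδ, div_mul_eq_mul_div, div_lt_div_iff₀ (by positivity) (by norm_num)]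
    nlinarith
  have hc := cont_Dp hA hX p i j
  rw [Metric.continuousWithinAt_iff'] at hc
  have hcz := hC.self_of_nhdsWithin hz
  have hmz := hM.self_of_nhdsWithin hz
  filter_upwards [hc (ε / 3) (by positivity), hC, hM, self_mem_nhdsWithin] with y h1 h2 h3 h4
  rw [Real.dist_eq] at h1 ⊢
  have a1 := hclose y h4 h2 h3
  have a2 := hclose z hz hcz hmz
  rw [abs_lt] at h1 ⊢
  rw [abs_le] at a1 a2
  constructor <;> linarith [h1.1, h1.2, a1.1, a1.2, a2.1, a2.2]

/-- continuity of `F(A)` -/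
theorem cont_mf (hF : ∀ x, HasDerivAt F (F1 x) x) (hL : ∀ x, |F1 x| ≤ L)
    (hA : ∀ i j, ContinuousWithinAt (fun z => A z i j) S z) (hs : ∀ y ∈ S, (A y)ᵀ = A y)
    (hz : z ∈ S) (i j : ι) :
    ContinuousWithinAt (fun z => mf F (A z) i j) S z := by
  have hL0 : 0 ≤ L := (abs_nonneg _).trans (hL 0)
  have hlip : ∀ x y, |F x - F y| ≤ L * |x - y| := by
    intro x y
    have h2 := convex_univ.norm_image_sub_le_of_norm_hasDerivWithin_le
      (f := F) (f' := F1) (s := Set.univ) (fun x _ => (hF x).hasDerivWithinAt)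
      (C := L) (fun t _ => hL t) (Set.mem_univ y) (Set.mem_univ x)
    simpa [Real.norm_eq_abs] using h2
  have hd : ContinuousWithinAt (fun y => L * √(fr (A y - A z))) S z := by
    have : ContinuousWithinAt (fun y => fr (A y - A z)) S z := by
      unfold fr
      simp only [Matrix.sub_apply]
      exact cw_sum fun i _ => cw_sum fun j _ =>
        ((hA i j).sub continuousWithinAt_const).pow 2
    exact continuousWithinAt_const.mul this.sqrt
  have h0 : L * √(fr (A z - A z)) = 0 := by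
    have : fr (A z - A z) = 0 := by rw [sub_self]; simp [fr]
    rw [this, Real.sqrt_zero, mul_zero]
  rw [ContinuousWithinAt, tendsto_iff_dist_tendsto_zero]
  have hd' : Tendsto (fun y => L * √(fr (A y - A z))) (𝓝[S] z) (𝓝 0) := by
    have := hd.tendsto
    rwa [h0] at this
  refine squeeze_zero' (Eventually.of_forall fun y => dist_nonneg) ?_ hd'
  filter_upwards [self_mem_nhdsWithin] with y hy
  obtain ⟨U, a, hU⟩ := exists_dec (hs y hy)
  obtain ⟨V, b, hV⟩ := exists_dec (hs z hz)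
  have h1 := mf_lip hU hV (F := F) (L := L) fun i j => hlip _ _
  have h2 : fr (mf F (A y) - mf F (A z)) ≤ (L * √(fr (A y - A z))) ^ 2 := by
    rw [mul_pow, Real.sq_sqrt (fr_nonneg _)]
    exact h1
  have h3 := entry_le (by positivity) h2 i j
  rw [Real.dist_eq]
  rwa [Matrix.sub_apply] at h3

end cont

end Vale.Agent.P245.H862
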