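import Vale.Agent.P245.H862.H1mf

/-!
# P245, row TID: gradients in the down and up calculi; trace of a function of a matrix field
-/

set_option linter.unusedSectionVars false

open Matrix Finset Filter Topology MeasureTheory Set

noncomputable section

namespace Vale.Agent.P245.H862

open Vale.Agent.P254.S130 Vale.Agent.P254.SP620
open Vale.Agent.P245.LS Vale.Agent.P245.LS.Down Vale.Agent.P245.E1

variable {n : ℕ} {I : Set ℝ} {f g e e' : ℝ → (Fin n → ℝ) → ℝ}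
  {a a' : Fin n → ℝ → (Fin n → ℝ) → ℝ} {μ : Measure (Fin n → ℝ)} {R : ℝ}

/-! ### canonical derivatives -/

theorem HK_pd {k : ℕ} (h : HK I (k + 1) f) (hI : IsOpen I) (i : Fin n) :
    HK I k (fun σ => pd (f σ) i) := by
  obtain ⟨d, a, h1, hd, ha⟩ := h
  exact (ha i).congr hI fun σ hσ y => by rw [h1.pd_eq hσ]

theorem HK_PH {N : (Fin n → ℝ) → ℝ} (c : ℝ) : ∀ (k : ℕ) {N : (Fin n → ℝ) → ℝ}, SB N →
    HK (Iio c) k (fun σ => PH (c - σ) N)
  | 0, _, hN => UE_PH hN c _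
  | k + 1, _, hN => HK.of_H1 (H1_PH hN c)
      ((HK.sum _ fun i _ => HK_PH (N := N) c k (sb_pd (sb_pd hN i) i)).const_mul _)
      fun i => HK_PH (N := N) c k (sb_pd hN i)

theorem HK_pd_comm (h : HK I 2 f) (hI : IsOpen I) {σ : ℝ} (hσ : σ ∈ I) (i j : Fin n) :
    pd (pd (f σ) i) j = pd (pd (f σ) j) i := by
  funext y
  have h1 := h.h1 hI
  have h2 : ∀ i, H1 I (fun σ => pd (f σ) i) (tdv fun σ => pd (f σ) i)
      (fun j σ => pd (pd (f σ) i) j) := fun i => (HK_pd h hI i).h1 hI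
  exact grad_symm (fun y => h1.fd σ hσ y) (fun i y => (h2 i).fd σ hσ y) i j y

theorem tdv_pd (h : HK I 2 f) (hI : IsOpen I) {σ : ℝ} (hσ : σ ∈ I) (k : Fin n) (y : Fin n → ℝ) :
    tdv (fun σ => pd (f σ) k) σ y = pd (tdv f σ) k y :=
  H1.mixed hI (h.h1 hI) ((h.tdv' hI).h1 hI) (fun i => (HK_pd h hI i).h1 hI) k hσ y

/-! ### the down calculus -/

theorem Dn_congr (h : Dn I f e a) (he : ∀ σ ∈ I, ∀ y, e' σ y = e σ y) : Dn I f e' a := by
  obtain ⟨d, da, a2, h1, h2, h3⟩ := h.ex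
  exact ⟨d, da, a2, h1, h2, fun σ hσ y => by rw [he σ hσ y, h3 σ hσ y]⟩

theorem Dn_canon (h : HK I 2 f) (hI : IsOpen I) :
    Dn I f (fun σ y => tdv f σ y + 1 / 2 * ∑ i, pd (pd (f σ) i) i y) (fun i σ => pd (f σ) i) :=
  ⟨_, _, _, h.h1 hI, fun i => (HK_pd h hI i).h1 hI, fun _ _ _ => rfl⟩

theorem Dn_e_eq (h : Dn I f e a) {σ : ℝ} (hσ : σ ∈ I) (y : Fin n → ℝ) :
    e σ y = tdv f σ y + 1 / 2 * ∑ i, pd (pd (f σ) i) i y := by
  obtain ⟨d, da, a2, h1, h2, h3⟩ := h.ex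
  rw [h3 σ hσ, h1.tdv_eq hσ]
  simp only [h1.pd_eq hσ, (h2 _).pd_eq hσ]

/-- the canonical gradient may be taken -/
theorem Dn_canon' (h : Dn I f e a) (hf : HK I 2 f) (hI : IsOpen I) :
    Dn I f e (fun i σ => pd (f σ) i) :=
  Dn_congr (Dn_canon hf hI) fun _ hσ y => Dn_e_eq h hσ y

theorem Dn_grad (h : Dn I f e a) (hf : HK I 3 f) (hI : IsOpen I) (k : Fin n) :
    Dn I (fun σ => pd (f σ) k) (fun σ => pd (e σ) k) (fun l σ => pd (pd (f σ) k) l) := by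
  refine Dn_congr (Dn_canon (HK_pd hf hI k) hI) fun σ hσ y => ?_
  have hf2 : HK I 2 f := hf.pred
  have hR := ((hf.tdv' hI).pred.h1 hI).add
    ((H1.sum Finset.univ fun i _ => (HK_pd (HK_pd hf hI i) hI i).h1 hI).const_mul (1 / 2))
  have e0 : e σ = fun y => tdv f σ y + 1 / 2 * ∑ i, pd (pd (f σ) i) i y := by
    funext y; exact Dn_e_eq h hσ y
  have k2 := congrFun (hR.pd_eq hσ k) y
  rw [e0]
  refine k2.trans ?_
  show pd (tdv f σ) k y + 1 / 2 * ∑ i, pd (pd (pd (f σ) i) i) k y = _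
  rw [tdv_pd hf2 hI hσ k y]
  congr 2
  refine Finset.sum_congr rfl fun i _ => ?_
  have s1 := HK_pd_comm (HK_pd hf hI i) hI hσ i k
  have s2 := HK_pd_comm hf2 hI hσ i k
  rw [s1, s2]

/-! ### the up calculus -/

theorem Um_congr (h : Um μ I f e a) (he : ∀ σ ∈ I, ∀ y, e' σ y = e σ y) : Um μ I f e' a := by
  obtain ⟨d, da, a2, h1, h2, h3⟩ := h.ex
  exact ⟨d, da, a2, h1, h2, fun σ hσ y => by rw [he σ hσ y, h3 σ hσ y]⟩

theorem Um_canon (h : HK I 2 f) (hI : IsOpen I) :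
    Um μ I f (fun σ y => tdv f σ y - 1 / 2 * ∑ i, pd (pd (f σ) i) i y
      - ∑ i, sc μ i σ y * pd (f σ) i y) (fun i σ => pd (f σ) i) :=
  ⟨_, _, _, h.h1 hI, fun i => (HK_pd h hI i).h1 hI, fun _ _ _ => rfl⟩

theorem Um_e_eq (h : Um μ I f e a) {σ : ℝ} (hσ : σ ∈ I) (y : Fin n → ℝ) :
    e σ y = tdv f σ y - 1 / 2 * ∑ i, pd (pd (f σ) i) i y - ∑ i, sc μ i σ y * pd (f σ) i y := by
  obtain ⟨d, da, a2, h1, h2, h3⟩ := h.ex
  rw [h3 σ hσ, h1.tdv_eq hσ]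
  simp only [h1.pd_eq hσ, (h2 _).pd_eq hσ]

theorem Um_canon' (h : Um μ I f e a) (hf : HK I 2 f) (hI : IsOpen I) :
    Um μ I f e (fun i σ => pd (f σ) i) :=
  Um_congr (Um_canon hf hI) fun _ hσ y => Um_e_eq h hσ y

theorem Um_grad [IsProbabilityMeasure μ] (hμ : CSupp μ R) (hI0 : I ⊆ Ioi 0)
    (h : Um μ I f e a) (hf : HK I 3 f) (hI : IsOpen I) (k : Fin n) :
    Um μ I (fun σ => pd (f σ) k) (fun σ y => pd (e σ) k y - ∑ i, Pv μ i k σ y * pd (f σ) i y)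
      (fun l σ => pd (pd (f σ) k) l) := by
  refine Um_congr (Um_canon (HK_pd hf hI k) hI) fun σ hσ y => ?_
  have hf2 : HK I 2 f := hf.pred
  have hR := (((hf.tdv' hI).pred.h1 hI).sub
    ((H1.sum Finset.univ fun i _ => (HK_pd (HK_pd hf hI i) hI i).h1 hI).const_mul (1 / 2))).sub
    (H1.sum Finset.univ fun i _ => ((H1_sc hμ i).mono hI0).mul ((HK_pd hf2 hI i).h1 hI))
  have e0 : e σ = fun y => tdv f σ y - 1 / 2 * ∑ i, pd (pd (f σ) i) i y
      - ∑ i, sc μ i σ y * pd (f σ) i y := by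
    funext y; exact Um_e_eq h hσ y
  have k2 := congrFun (hR.pd_eq hσ k) y
  have k3 : pd (e σ) k y = pd (tdv f σ) k y - 1 / 2 * ∑ i, pd (pd (pd (f σ) i) i) k y
      - ∑ i, (-Pv μ i k σ y * pd (f σ) i y + sc μ i σ y * pd (pd (f σ) i) k y) := by
    rw [e0]
    exact k2
  rw [k3, tdv_pd hf2 hI hσ k y]
  have s3 : ∑ i, pd (pd (pd (f σ) i) i) k y = ∑ i, pd (pd (pd (f σ) k) i) i y := by
    refine Finset.sum_congr rfl fun i _ => ?_
    have s1 := HK_pd_comm (HK_pd hf hI i) hI hσ i k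
    have s2 := HK_pd_comm hf2 hI hσ i k
    rw [s1, s2]
  have s4 : ∑ i, sc μ i σ y * pd (pd (f σ) i) k y = ∑ i, sc μ i σ y * pd (pd (f σ) k) i y := by
    refine Finset.sum_congr rfl fun i _ => ?_
    rw [HK_pd_comm hf2 hI hσ i k]
  rw [s3, Finset.sum_add_distrib, s4]
  simp only [neg_mul, Finset.sum_neg_distrib]
  ring

/-! ### trace of a function of a matrix field -/

variable {ι : Type*} [Fintype ι] [DecidableEq ι] {F F1 Φ : ℝ → ℝ} {B L : ℝ}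

theorem exch (X : Fin n → ι → ι → ℝ) : ∑ i, ∑ j, ∑ k, X k i j = ∑ k, ∑ i, ∑ j, X k i j :=
  calc ∑ i, ∑ j, ∑ k, X k i j = ∑ i, ∑ k, ∑ j, X k i j :=
        Finset.sum_congr rfl fun _ _ => Finset.sum_comm
    _ = _ := Finset.sum_comm

theorem sum_half (G : ι → ι → ℝ) (X : ι → ι → Fin n → ℝ) :
    ∑ i, ∑ j, G i j * (1 / 2 * ∑ k, X i j k) = 1 / 2 * ∑ k, ∑ i, ∑ j, G i j * X i j k := by
  rw [← exch fun k i j => G i j * X i j k]
  simp only [Finset.mul_sum]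
  refine Finset.sum_congr rfl fun i _ => Finset.sum_congr rfl fun j _ =>
    Finset.sum_congr rfl fun k _ => ?_
  ring

theorem Dn_trphi (hI : IsOpen I) (hΦ : ∀ x, HasDerivAt Φ (F x) x)
    (hF : ∀ x, HasDerivAt F (F1 x) x) (hF1 : Continuous F1) (hB : ∀ x, |F x| ≤ B)
    (hL : ∀ x, |F1 x| ≤ L) {A e : ι → ι → ℝ → (Fin n → ℝ) → ℝ}
    {a : ι → ι → Fin n → ℝ → (Fin n → ℝ) → ℝ} (hA : ∀ i j, Dn I (A i j) (e i j) (a i j))
    (hs : ∀ σ ∈ I, ∀ y, (Mt A σ y)ᵀ = Mt A σ y) :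
    Dn I (fun σ y => ∑ i, mf Φ (Mt A σ y) i i)
      (fun σ y => ∑ i, ∑ j, mf F (Mt A σ y) i j * e i j σ y + 1 / 2 * ∑ k, ∑ i, ∑ j,
        dmf F F1 (Mt A σ y) (Mt (fun i j => a i j k) σ y) i j * a i j k σ y)
      (fun k σ y => ∑ i, ∑ j, mf F (Mt A σ y) i j * a i j k σ y) := by
  choose d da a2 h1 h2 h3 using fun i j => (hA i j).ex
  have hFc : Continuous F := continuous_iff_continuousAt.2 fun x => (hF x).continuousAt
  refine ⟨_, _, _, H1_trphi hI hΦ hFc hB h1 hs, fun k => H1.sum Finset.univ fun i _ =>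
    H1.sum Finset.univ fun j _ => (H1_mf hI hF hF1 hL h1 hs i j).mul (h2 i j k),
    fun σ hσ y => ?_⟩
  have e0 := sum_half (fun i j => mf F (Mt A σ y) i j) (fun i j k => a2 i j k k σ y)
  simp only [h3 _ _ σ hσ y, Finset.sum_add_distrib, mul_add]
  linear_combination e0

theorem Um_trphi (hI : IsOpen I) (hΦ : ∀ x, HasDerivAt Φ (F x) x)
    (hF : ∀ x, HasDerivAt F (F1 x) x) (hF1 : Continuous F1) (hB : ∀ x, |F x| ≤ B)
    (hL : ∀ x, |F1 x| ≤ L) {A e : ι → ι → ℝ → (Fin n → ℝ) → ℝ}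
    {a : ι → ι → Fin n → ℝ → (Fin n → ℝ) → ℝ} (hA : ∀ i j, Um μ I (A i j) (e i j) (a i j))
    (hs : ∀ σ ∈ I, ∀ y, (Mt A σ y)ᵀ = Mt A σ y) :
    Um μ I (fun σ y => ∑ i, mf Φ (Mt A σ y) i i)
      (fun σ y => ∑ i, ∑ j, mf F (Mt A σ y) i j * e i j σ y - 1 / 2 * ∑ k, ∑ i, ∑ j,
        dmf F F1 (Mt A σ y) (Mt (fun i j => a i j k) σ y) i j * a i j k σ y)
      (fun k σ y => ∑ i, ∑ j, mf F (Mt A σ y) i j * a i j k σ y) := by
  choose d da a2 h1 h2 h3 using fun i j => (hA i j).ex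
  have hFc : Continuous F := continuous_iff_continuousAt.2 fun x => (hF x).continuousAt
  refine ⟨_, _, _, H1_trphi hI hΦ hFc hB h1 hs, fun k => H1.sum Finset.univ fun i _ =>
    H1.sum Finset.univ fun j _ => (H1_mf hI hF hF1 hL h1 hs i j).mul (h2 i j k),
    fun σ hσ y => ?_⟩
  have e1 : ∑ i, ∑ j, mf F (Mt A σ y) i j * ∑ k, sc μ k σ y * a i j k σ y
      = ∑ k, sc μ k σ y * ∑ i, ∑ j, mf F (Mt A σ y) i j * a i j k σ y := by
    have := exch (fun k i j => mf F (Mt A σ y) i j * (sc μ k σ y * a i j k σ y))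
    simp only [Finset.mul_sum]
    rw [this]
    refine Finset.sum_congr rfl fun k _ => Finset.sum_congr rfl fun i _ =>
      Finset.sum_congr rfl fun j _ => ?_
    ring
  have e0 := sum_half (fun i j => mf F (Mt A σ y) i j) (fun i j k => a2 i j k k σ y)
  simp only [h3 _ _ σ hσ y, Finset.sum_add_distrib, mul_add, mul_sub, Finset.sum_sub_distrib]
  linear_combination -e0 - e1

end Vale.Agent.P245.H862
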