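import Vale.Agent.P245.Bdl.B2
import Vale.Agent.P245.H862.FC

/-!
# P245, row TID: functional calculus of symmetric matrix fields in the classes `UE`, `H1`
-/

set_option linter.unusedSectionVars false

open Matrix Finset Filter Topology

noncomputable section

namespace Vale.Agent.P245.H862

open Vale.Agent.P254.S130 Vale.Agent.P254.SP620
open Vale.Agent.P245.LS Vale.Agent.P245.LS.Down Vale.Agent.P245.E1

variable {n : ℕ} {ι : Type*} [Fintype ι] [DecidableEq ι]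

/-- the matrix of the entries of a field -/
def Mt (A : ι → ι → ℝ → (Fin n → ℝ) → ℝ) (σ : ℝ) (y : Fin n → ℝ) : Matrix ι ι ℝ :=
  of fun i j => A i j σ y

theorem Mt_apply (A : ι → ι → ℝ → (Fin n → ℝ) → ℝ) (σ : ℝ) (y : Fin n → ℝ) (i j : ι) :
    Mt A σ y i j = A i j σ y := rfl

variable {I : Set ℝ}

theorem UE_of_abs_le {f g : ℝ → (Fin n → ℝ) → ℝ}
    (hc : ContinuousOn (fun p : ℝ × (Fin n → ℝ) => f p.1 p.2) (I ×ˢ Set.univ)) (hg : UE I g)
    (h : ∀ σ ∈ I, ∀ y, |f σ y| ≤ g σ y) : UE I f := by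
  refine ⟨hc, fun p q hpq => ?_⟩
  obtain ⟨K, hK0, hK⟩ := hg.2 p q hpq
  exact ⟨K, hK0, fun σ hσ y =>
    (h σ (hpq hσ) y).trans ((le_abs_self _).trans (hK σ hσ y))⟩

theorem UE_fr {A : ι → ι → ℝ → (Fin n → ℝ) → ℝ} (hA : ∀ i j, UE I (A i j)) :
    UE I (fun σ y => fr (Mt A σ y)) := by
  unfold fr
  refine UE.sum _ fun i _ => UE.sum _ fun j _ => ?_
  simpa only [sq, Mt_apply] using (hA i j).mul (hA i j)

variable {F F1 : ℝ → ℝ} {L : ℝ}

theorem abs_le_of_fr {X : Matrix ι ι ℝ} {K : ℝ} (hK : fr X ≤ K) (i j : ι) : |X i j| ≤ K + 1 := by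
  have h1 : X i j ^ 2 ≤ K := (sq_le_fr X i j).trans hK
  have h2 : |X i j| ^ 2 = X i j ^ 2 := sq_abs _
  nlinarith [sq_nonneg (|X i j| - 1)]

theorem lip_of_deriv (hF : ∀ x, HasDerivAt F (F1 x) x) (hL : ∀ x, |F1 x| ≤ L) (x y : ℝ) :
    |F x - F y| ≤ L * |x - y| := by
  have h2 := convex_univ.norm_image_sub_le_of_norm_hasDerivWithin_le
    (f := F) (f' := F1) (s := Set.univ) (fun x _ => (hF x).hasDerivWithinAt)
    (C := L) (fun t _ => hL t) (Set.mem_univ y) (Set.mem_univ x)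
  simpa [Real.norm_eq_abs] using h2

theorem UE_mf (hF : ∀ x, HasDerivAt F (F1 x) x) (hL : ∀ x, |F1 x| ≤ L)
    {A : ι → ι → ℝ → (Fin n → ℝ) → ℝ} (hA : ∀ i j, UE I (A i j))
    (hs : ∀ σ ∈ I, ∀ y, (Mt A σ y)ᵀ = Mt A σ y) (i j : ι) :
    UE I (fun σ y => mf F (Mt A σ y) i j) := by
  refine UE_of_abs_le (g := fun σ y => |mf F (0 : Matrix ι ι ℝ) i j| +
    (L ^ 2 * fr (Mt A σ y) + 1)) ?_
    ((UE.const _).add (((UE_fr hA).const_mul _).add (UE.const 1))) fun σ hσ y => ?_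
  · intro p hp
    exact cont_mf (Z := ℝ × (Fin n → ℝ)) (A := fun p => Mt A p.1 p.2) hF hL
      (fun i j => (hA i j).1 p hp) (fun q hq => hs _ hq.1 _) hp i j
  · obtain ⟨U, a, hU⟩ := exists_dec (hs σ hσ y)
    obtain ⟨V, b, hV⟩ := exists_dec (A := (0 : Matrix ι ι ℝ)) (by simp)
    have h1 := mf_lip hU hV (F := F) (L := L) fun i j => lip_of_deriv hF hL _ _
    rw [sub_zero] at h1
    have h2 := abs_le_of_fr h1 i j
    rw [Matrix.sub_apply] at h2
    have h3 := abs_sub_abs_le_abs_sub (mf F (Mt A σ y) i j) (mf F (0 : Matrix ι ι ℝ) i j)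
    linarith

theorem UE_dmf (hF : ∀ x, HasDerivAt F (F1 x) x) (hF1 : Continuous F1) (hL : ∀ x, |F1 x| ≤ L)
    {A X : ι → ι → ℝ → (Fin n → ℝ) → ℝ} (hA : ∀ i j, UE I (A i j)) (hX : ∀ i j, UE I (X i j))
    (hs : ∀ σ ∈ I, ∀ y, (Mt A σ y)ᵀ = Mt A σ y) (i j : ι) :
    UE I (fun σ y => dmf F F1 (Mt A σ y) (Mt X σ y) i j) := by
  refine UE_of_abs_le (g := fun σ y => L ^ 2 * fr (Mt X σ y) + 1) ?_
    (((UE_fr hX).const_mul _).add (UE.const 1)) fun σ hσ y => ?_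
  · intro p hp
    exact cont_dmf (Z := ℝ × (Fin n → ℝ)) (A := fun p => Mt A p.1 p.2)
      (X := fun p => Mt X p.1 p.2) hF hF1 (fun i j => (hA i j).1 p hp)
      (fun i j => (hX i j).1 p hp) (fun q hq => hs _ hq.1 _) hp i j
  · exact abs_le_of_fr (fr_dmf_le hF hL _ _) i j

/-- local version of the derivative of `A ↦ F(A)` along a symmetric family -/
theorem hasFD_mf' {V : Type*} [NormedAddCommGroup V] [NormedSpace ℝ V]
    {A : V → Matrix ι ι ℝ} {Lm : ι → ι → V →L[ℝ] ℝ} {z : V}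
    (hF : ∀ x, HasDerivAt F (F1 x) x) (hF1 : Continuous F1)
    (hs : ∀ᶠ y in 𝓝 z, (A y)ᵀ = A y) (hA : ∀ i j, HasFDerivAt (fun y => A y i j) (Lm i j) z)
    {U : Matrix ι ι ℝ} {m : ι → ℝ} (hU : Dec (A z) U m) (i j : ι) :
    HasFDerivAt (fun y => mf F (A y) i j) (DKL F F1 U m Lm i j) z := by
  have hc : ∀ i j, ContinuousWithinAt (fun y => A y i j) Set.univ z := fun i j =>
    (hA i j).continuousAt.continuousWithinAt
  obtain ⟨C, hC0, hC⟩ := bdd_near hc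
  rw [nhdsWithin_univ] at hC
  have hCz : fr (A z) ≤ C ^ 2 := hC.self_of_nhds
  refine hasFD_mf (c := -C) (C := C) (by linarith) (fun x _ => (hF x).hasDerivWithinAt)
    hF1.continuousOn ?_ hU (fun i => eig_mem hU hC0 hCz i) hA i j
  filter_upwards [hC, hs] with y h1 h2
  obtain ⟨U', m', hU'⟩ := exists_dec h2
  exact ⟨U', m', hU', fun i => eig_mem hU' hC0 h1 i⟩

theorem H1_mf (hI : IsOpen I) (hF : ∀ x, HasDerivAt F (F1 x) x) (hF1 : Continuous F1)
    (hL : ∀ x, |F1 x| ≤ L) {A dA : ι → ι → ℝ → (Fin n → ℝ) → ℝ}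
    {aA : ι → ι → Fin n → ℝ → (Fin n → ℝ) → ℝ} (hA : ∀ i j, H1 I (A i j) (dA i j) (aA i j))
    (hs : ∀ σ ∈ I, ∀ y, (Mt A σ y)ᵀ = Mt A σ y) (i j : ι) :
    H1 I (fun σ y => mf F (Mt A σ y) i j) (fun σ y => dmf F F1 (Mt A σ y) (Mt dA σ y) i j)
      (fun k σ y => dmf F F1 (Mt A σ y) (Mt (fun i j => aA i j k) σ y) i j) where
  uf := UE_mf hF hL (fun i j => (hA i j).uf) hs i j
  ud := UE_dmf hF hF1 hL (fun i j => (hA i j).uf) (fun i j => (hA i j).ud) hs i j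
  ua := fun k => UE_dmf hF hF1 hL (fun i j => (hA i j).uf) (fun i j => (hA i j).ua k) hs i j
  fd := by
    intro σ hσ y
    obtain ⟨U, m, hU⟩ := exists_dec (hs σ hσ y)
    have h := hasFD_mf' (A := fun y => Mt A σ y) hF hF1
      (Filter.Eventually.of_forall fun y => hs σ hσ y) (fun i j => (hA i j).fd σ hσ y) hU i j
    refine h.congr_fderiv ?_
    ext v
    rw [DKL_apply, lf_apply]
    have e : (of fun i j => (lf fun k => aA i j k σ y) v)
        = ∑ k, v k • Mt (fun i j => aA i j k) σ y := by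
      ext i j
      simp only [of_apply, lf_apply, Matrix.sum_apply, Matrix.smul_apply, Mt_apply, smul_eq_mul]
      exact Finset.sum_congr rfl fun k _ => mul_comm _ _
    rw [e, DK_sum, Matrix.sum_apply]
    refine Finset.sum_congr rfl fun k _ => ?_
    rw [DK_smul, Matrix.smul_apply, smul_eq_mul, dmf_eq hU, mul_comm]
  td := by
    intro σ hσ y
    obtain ⟨U, m, hU⟩ := exists_dec (hs σ hσ y)
    have h := hasFD_mf' (A := fun σ => Mt A σ y) (z := σ) hF hF1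
      (by filter_upwards [hI.mem_nhds hσ] with τ hτ using hs τ hτ y)
      (fun i j => ((hA i j).td σ hσ y).hasFDerivAt) hU i j
    have h2 := h.hasDerivAt
    refine h2.congr_deriv ?_
    rw [DKL_apply, dmf_eq hU]
    congr 1
    ext i j
    simp [Mt_apply]

/-! ### trace of a function of the field -/

theorem sum_diag_dmf {A : Matrix ι ι ℝ} (hA : Aᵀ = A) (Φ F : ℝ → ℝ) (X : Matrix ι ι ℝ) :
    ∑ i, dmf Φ F A X i i = ∑ i, ∑ j, mf F A i j * X j i := by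
  have h := trace_dmf hA Φ F X
  simpa [Matrix.trace, Matrix.mul_apply] using h

theorem mf_symm' {A : Matrix ι ι ℝ} (hA : Aᵀ = A) (F : ℝ → ℝ) (i j : ι) :
    mf F A i j = mf F A j i := by
  obtain ⟨U, m, hU⟩ := exists_dec hA
  have := hU.mf_symm F
  calc mf F A i j = (mf F A)ᵀ j i := rfl
    _ = _ := by rw [this]

theorem H1_trphi (hI : IsOpen I) {Φ : ℝ → ℝ} {B : ℝ} (hΦ : ∀ x, HasDerivAt Φ (F x) x)
    (hF : Continuous F) (hB : ∀ x, |F x| ≤ B) {A dA : ι → ι → ℝ → (Fin n → ℝ) → ℝ}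
    {aA : ι → ι → Fin n → ℝ → (Fin n → ℝ) → ℝ} (hA : ∀ i j, H1 I (A i j) (dA i j) (aA i j))
    (hs : ∀ σ ∈ I, ∀ y, (Mt A σ y)ᵀ = Mt A σ y) :
    H1 I (fun σ y => ∑ i, mf Φ (Mt A σ y) i i)
      (fun σ y => ∑ i, ∑ j, mf F (Mt A σ y) i j * dA i j σ y)
      (fun k σ y => ∑ i, ∑ j, mf F (Mt A σ y) i j * aA i j k σ y) := by
  have h := H1.sum Finset.univ fun i _ => H1_mf hI hΦ hF hB hA hs i i
  have key : ∀ X : ι → ι → ℝ → (Fin n → ℝ) → ℝ, ∀ σ ∈ I, ∀ y,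
      (∀ i j, X i j σ y = X j i σ y) →
      ∑ i, ∑ j, mf F (Mt A σ y) i j * X i j σ y = ∑ i, dmf Φ F (Mt A σ y) (Mt X σ y) i i := by
    intro X σ hσ y hX
    rw [sum_diag_dmf (hs σ hσ y)]
    refine Finset.sum_congr rfl fun i _ => Finset.sum_congr rfl fun j _ => ?_
    rw [Mt_apply, hX]
  have hAs : ∀ i j, ∀ σ ∈ I, ∀ y, A i j σ y = A j i σ y := by
    intro i j σ hσ y
    calc A i j σ y = (Mt A σ y) i j := rfl
      _ = (Mt A σ y)ᵀ i j := by rw [hs σ hσ y]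
      _ = _ := rfl
  refine h.congr hI (fun σ hσ y => rfl) (fun σ hσ y => ?_) (fun k σ hσ y => ?_)
  · refine key dA σ hσ y fun i j => ?_
    have h1 := (hA i j).td σ hσ y
    have h2 := (hA j i).td σ hσ y
    refine h1.unique (h2.congr_of_eventuallyEq ?_)
    filter_upwards [hI.mem_nhds hσ] with τ hτ using hAs i j τ hτ y
  · refine key (fun i j => aA i j k) σ hσ y fun i j => ?_
    have h1 := (hA i j).pd_eq hσ k
    have h2 := (hA j i).pd_eq hσ k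
    have e : A i j σ = A j i σ := by funext y; exact hAs i j σ hσ y
    rw [e, h2] at h1
    exact (congrFun h1 y).symm

end Vale.Agent.P245.H862
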