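import Vale.Agent.P245.H862.Grad

/-!
# P245, row TID: the score and its Hessian along the down and up paths, `tr φ(S)` along the paths
-/

set_option linter.unusedSectionVars false

open Matrix Finset Filter Topology MeasureTheory Set

noncomputable section

namespace Vale.Agent.P245.H862

open Vale.Agent.P254.S130 Vale.Agent.P254.SP620
open Vale.Agent.P245.LS Vale.Agent.P245.LS.Down Vale.Agent.P245.E1

variable {n : ℕ}

/-- `S = κ D² log N` as a matrix -/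
def Hs (κ : ℝ) (N : (Fin n → ℝ) → ℝ) (y : Fin n → ℝ) : Matrix (Fin n) (Fin n) ℝ :=
  of fun i j => κ * pd (sN N i) j y

/-- the partial derivative `∂_k S` -/
def dHs (κ : ℝ) (N : (Fin n → ℝ) → ℝ) (k : Fin n) (y : Fin n → ℝ) :
    Matrix (Fin n) (Fin n) ℝ :=
  of fun i j => κ * pd (pd (sN N i) j) k y

/-- the Hessian of `V_r` as a matrix -/
def PVm (μ : Measure (Fin n → ℝ)) (r : ℝ) (y : Fin n → ℝ) : Matrix (Fin n) (Fin n) ℝ :=
  of fun i j => PV μ r i j y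

/-- the density of `TT`: `∑_k ⟨DF(S)[∂_k S], ∂_k S⟩` -/
def TTd (κ : ℝ) (F F1 : ℝ → ℝ) (N : (Fin n → ℝ) → ℝ) (y : Fin n → ℝ) : ℝ :=
  ∑ k, (dmf F F1 (Hs κ N y) (dHs κ N k y) * dHs κ N k y).trace

theorem Hs_apply (κ : ℝ) (N : (Fin n → ℝ) → ℝ) (y : Fin n → ℝ) (i j : Fin n) :
    Hs κ N y i j = κ * pd (sN N i) j y := rfl

theorem dHs_apply (κ : ℝ) (N : (Fin n → ℝ) → ℝ) (k : Fin n) (y : Fin n → ℝ) (i j : Fin n) :
    dHs κ N k y i j = κ * pd (pd (sN N i) j) k y := rfl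

/-- the field `∇² V · κ ∇ log N` -/
def PVw (μ : Measure (Fin n → ℝ)) (r κ : ℝ) (N : (Fin n → ℝ) → ℝ) (i : Fin n)
    (y : Fin n → ℝ) : ℝ := ∑ l, PV μ r i l y * (κ * sN N l y)

variable {I : Set ℝ} {M e : ℝ → (Fin n → ℝ) → ℝ} {a : Fin n → ℝ → (Fin n → ℝ) → ℝ}
  {μ : Measure (Fin n → ℝ)} {R ε κ : ℝ}

theorem Dn_const_mul {f : ℝ → (Fin n → ℝ) → ℝ} (c : ℝ) (h : Dn I f e a) :
    Dn I (fun σ y => c * f σ y) (fun σ y => c * e σ y) (fun i σ y => c * a i σ y) := by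
  obtain ⟨d, da, a2, h1, h2, h3⟩ := h.ex
  refine ⟨_, _, _, h1.const_mul c, fun i => (h2 i).const_mul c, fun σ hσ y => ?_⟩
  rw [h3 σ hσ, ← Finset.mul_sum]
  ring

theorem Um_const_mul {f : ℝ → (Fin n → ℝ) → ℝ} (c : ℝ) (h : Um μ I f e a) :
    Um μ I (fun σ y => c * f σ y) (fun σ y => c * e σ y) (fun i σ y => c * a i σ y) := by
  obtain ⟨d, da, a2, h1, h2, h3⟩ := h.ex
  refine ⟨_, _, _, h1.const_mul c, fun i => (h2 i).const_mul c, fun σ hσ y => ?_⟩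
  have e1 : ∑ i, sc μ i σ y * (c * a i σ y) = c * ∑ i, sc μ i σ y * a i σ y := by
    rw [Finset.mul_sum]
    exact Finset.sum_congr rfl fun i _ => by ring
  rw [h3 σ hσ, ← Finset.mul_sum, e1]
  ring

/-! ### the score field -/

theorem HK_sN {k : ℕ} (hI : IsOpen I) (hM : HK I (k + 1) M) (hε : 0 < ε)
    (hlb : ∀ σ ∈ I, ∀ y, ε ≤ M σ y) (i : Fin n) : HK I k (fun σ => sN (M σ) i) :=
  (HK_pd hM hI i).div hM.pred hε hlb

theorem pd_log_eq (hI : IsOpen I) (hM : HK I 1 M) (hε : 0 < ε)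
    (hlb : ∀ σ ∈ I, ∀ y, ε ≤ M σ y) {σ : ℝ} (hσ : σ ∈ I) (i : Fin n) :
    pd (fun y => Real.log (M σ y)) i = sN (M σ) i :=
  ((hM.h1 hI).log hε hlb).pd_eq hσ i

/-- congruence of the function in the class `HK`, under `pd` -/
theorem pd_congr_on {f g : ℝ → (Fin n → ℝ) → ℝ} (h : ∀ σ ∈ I, ∀ y, f σ y = g σ y) {σ : ℝ}
    (hσ : σ ∈ I) (i : Fin n) : pd (f σ) i = pd (g σ) i := by
  have : f σ = g σ := by funext y; exact h σ hσ y
  rw [this]

theorem sN_symm (hI : IsOpen I) (hM : HK I 2 M) (hε : 0 < ε)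
    (hlb : ∀ σ ∈ I, ∀ y, ε ≤ M σ y) {σ : ℝ} (hσ : σ ∈ I) (i j : Fin n) :
    pd (sN (M σ) i) j = pd (sN (M σ) j) i := by
  rw [← pd_log_eq hI hM.pred hε hlb hσ i, ← pd_log_eq hI hM.pred hε hlb hσ j]
  exact HK_pd_comm (f := fun σ y => Real.log (M σ y)) (hM.log hε hlb) hI hσ i j

theorem sN_symm3 (hI : IsOpen I) (hM : HK I 3 M) (hε : 0 < ε)
    (hlb : ∀ σ ∈ I, ∀ y, ε ≤ M σ y) {σ : ℝ} (hσ : σ ∈ I) (i j l : Fin n) :
    pd (pd (sN (M σ) l) i) j = pd (pd (sN (M σ) i) j) l := by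
  rw [sN_symm hI hM.pred hε hlb hσ l i]
  exact HK_pd_comm (HK_sN hI hM hε hlb i) hI hσ l j

theorem Hs_symm (hI : IsOpen I) (hM : HK I 2 M) (hε : 0 < ε)
    (hlb : ∀ σ ∈ I, ∀ y, ε ≤ M σ y) {σ : ℝ} (hσ : σ ∈ I) (y : Fin n → ℝ) :
    (Hs κ (M σ) y)ᵀ = Hs κ (M σ) y := by
  ext i j
  rw [transpose_apply, Hs_apply, Hs_apply, sN_symm hI hM hε hlb hσ i j]

theorem dHs_symm (hI : IsOpen I) (hM : HK I 2 M) (hε : 0 < ε)
    (hlb : ∀ σ ∈ I, ∀ y, ε ≤ M σ y) {σ : ℝ} (hσ : σ ∈ I) (k : Fin n) (y : Fin n → ℝ) :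
    (dHs κ (M σ) k y)ᵀ = dHs κ (M σ) k y := by
  ext i j
  rw [transpose_apply, dHs_apply, dHs_apply, sN_symm hI hM hε hlb hσ i j]

/-! ### down -/

/-- the score along the down path -/
theorem Dn_sN (hI : IsOpen I) (hM : HK I 4 M) (hε : 0 < ε) (hlb : ∀ σ ∈ I, ∀ y, ε ≤ M σ y)
    (hD : Dn I M (fun _ _ => 0) a) (i : Fin n) :
    Dn I (fun σ => sN (M σ) i) (fun σ y => -∑ l, sN (M σ) l y * pd (sN (M σ) l) i y)
      (fun j σ => pd (sN (M σ) i) j) := by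
  have hM1 : HK I 1 M := hM.pred.pred.pred
  have hlog : HK I 4 (fun σ y => Real.log (M σ y)) := hM.log hε hlb
  have h0 := Dn.log hD hε hlb hI
  have hDc := Dn_canon' hD hM.pred.pred hI
  have h0 := Dn.log hDc hε hlb hI
  have h1 : Dn I (fun σ y => Real.log (M σ y)) (fun σ y => -(1 / 2) * ∑ l, sN (M σ) l y ^ 2)
      (fun i σ y => pd (M σ) i y / M σ y) := by
    refine Dn_congr h0 fun σ hσ y => ?_
    have hy : M σ y ≠ 0 := (hε.trans_le (hlb σ hσ y)).ne'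
    unfold sN
    simp only [div_pow, ← Finset.sum_div]
    ring
  have h2 := Dn_grad h1 hlog.pred hI i
  -- the gradient of the right-hand side
  have hG : ∀ l, HK I 3 (fun σ => sN (M σ) l) := HK_sN hI hM hε hlb
  have hR : H1 I (fun σ y => -(1 / 2) * ∑ l, sN (M σ) l y * sN (M σ) l y) _ _ :=
    (H1.sum Finset.univ fun l _ => ((hG l).pred.pred.h1 hI).mul ((hG l).pred.pred.h1 hI)).const_mul
      (-(1 / 2))
  have h3 : Dn I (fun σ => sN (M σ) i) (fun σ y => -∑ l, sN (M σ) l y * pd (sN (M σ) l) i y)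
      (fun l σ => pd (pd (fun y => Real.log (M σ y)) i) l) := by
    have h4 : Dn I (fun σ => pd (fun y => Real.log (M σ y)) i)
        (fun σ y => -∑ l, sN (M σ) l y * pd (sN (M σ) l) i y)
        (fun l σ => pd (pd (fun y => Real.log (M σ y)) i) l) := by
      refine Dn_congr h2 fun σ hσ y => ?_
      have k1 := congrFun (hR.pd_eq hσ i) y
      have k2 : pd (fun y => -(1 / 2) * ∑ l, sN (M σ) l y ^ 2) i y
          = -(1 / 2) * ∑ l, (pd (sN (M σ) l) i y * sN (M σ) l y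
            + sN (M σ) l y * pd (sN (M σ) l) i y) := by
        simp only [sq]
        exact k1
      rw [k2, Finset.mul_sum, ← Finset.sum_neg_distrib]
      exact Finset.sum_congr rfl fun l _ => by ring
    obtain ⟨d, da, a2, q1, q2, q3⟩ := h4.ex
    refine ⟨d, da, a2, q1.congr hI (fun σ hσ y => ?_) (fun _ _ _ => rfl) (fun _ _ _ _ => rfl),
      q2, q3⟩
    exact (congrFun (pd_log_eq hI hM1 hε hlb hσ i) y).symm
  exact Dn_canon' h3 (hG i).pred hI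

/-- the Hessian of the logarithm along the down path -/
theorem Dn_Hs (hI : IsOpen I) (hM : HK I 4 M) (hε : 0 < ε) (hlb : ∀ σ ∈ I, ∀ y, ε ≤ M σ y)
    (hD : Dn I M (fun _ _ => 0) a) (hκ : κ ≠ 0) (i j : Fin n) :
    Dn I (fun σ y => Hs κ (M σ) y i j)
      (fun σ y => -(1 / κ) * ∑ l, Hs κ (M σ) y i l * Hs κ (M σ) y l j
        - ∑ l, sN (M σ) l y * dHs κ (M σ) l y i j)
      (fun k σ y => dHs κ (M σ) k y i j) := by
  have h1 := Dn_sN hI hM hε hlb hD i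
  have hG : ∀ l, HK I 3 (fun σ => sN (M σ) l) := HK_sN hI hM hε hlb
  have h2 := Dn_const_mul κ (Dn_grad h1 (hG i) hI j)
  refine Dn_congr h2 fun σ hσ y => ?_
  have hR := (H1.sum Finset.univ fun l _ => ((hG l).pred.pred.h1 hI).mul
    ((HK_pd (hG l).pred hI i).h1 hI)).neg
  have k1 := congrFun (hR.pd_eq hσ j) y
  have k2 : pd (fun y => -∑ l, sN (M σ) l y * pd (sN (M σ) l) i y) j y
      = -∑ l, (pd (sN (M σ) l) j y * pd (sN (M σ) l) i y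
        + sN (M σ) l y * pd (pd (sN (M σ) l) i) j y) := k1
  rw [k2, mul_neg, Finset.mul_sum, Finset.mul_sum, ← Finset.sum_sub_distrib,
    ← Finset.sum_neg_distrib]
  refine Finset.sum_congr rfl fun l _ => ?_
  rw [Hs_apply, Hs_apply, dHs_apply, sN_symm3 hI hM.pred hε hlb hσ i j l,
    sN_symm hI hM.pred.pred hε hlb hσ i l]
  field_simp
  ring

variable {F F1 Φ : ℝ → ℝ} {B L : ℝ}

theorem trace_eq_sum (X Y : Matrix (Fin n) (Fin n) ℝ) (hY : Yᵀ = Y) :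
    (X * Y).trace = ∑ i, ∑ j, X i j * Y i j := by
  rw [Matrix.trace]
  refine Finset.sum_congr rfl fun i _ => ?_
  rw [diag_apply, Matrix.mul_apply]
  refine Finset.sum_congr rfl fun j _ => ?_
  have : Y j i = Y i j := by
    calc Y j i = Yᵀ i j := rfl
      _ = _ := by rw [hY]
  rw [this]

theorem mul_self_symm {X : Matrix (Fin n) (Fin n) ℝ} (h : Xᵀ = X) : (X * X)ᵀ = X * X := by
  rw [transpose_mul, h]

/-- **`N tr φ(S)` along the down path** -/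
theorem Dn_Ntr (hI : IsOpen I) (hM : HK I 4 M) (hε : 0 < ε) (hlb : ∀ σ ∈ I, ∀ y, ε ≤ M σ y)
    (hD : Dn I M (fun _ _ => 0) a) (hκ : κ ≠ 0) (hΦ : ∀ x, HasDerivAt Φ (F x) x)
    (hF : ∀ x, HasDerivAt F (F1 x) x) (hF1 : Continuous F1) (hB : ∀ x, |F x| ≤ B)
    (hL : ∀ x, |F1 x| ≤ L) :
    ∃ b, Dn I (fun σ y => M σ y * (mf Φ (Hs κ (M σ) y)).trace)
      (fun σ y => M σ y * (1 / 2 * TTd κ F F1 (M σ) y
        - 1 / κ * (mf F (Hs κ (M σ) y) * (Hs κ (M σ) y * Hs κ (M σ) y)).trace)) b := by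
  have hMt : ∀ σ y, Mt (fun i j σ y => Hs κ (M σ) y i j) σ y = Hs κ (M σ) y := fun σ y => rfl
  have hMt2 : ∀ k σ y, Mt (fun i j σ y => dHs κ (M σ) k y i j) σ y = dHs κ (M σ) k y :=
    fun k σ y => rfl
  have hs : ∀ σ ∈ I, ∀ y, (Hs κ (M σ) y)ᵀ = Hs κ (M σ) y := fun σ hσ y =>
    Hs_symm hI hM.pred.pred hε hlb hσ y
  have hs2 : ∀ k, ∀ σ ∈ I, ∀ y, (dHs κ (M σ) k y)ᵀ = dHs κ (M σ) k y := fun k σ hσ y =>
    dHs_symm hI hM.pred.pred hε hlb hσ k y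
  have h1 := Dn_trphi hI hΦ hF hF1 hB hL (fun i j => Dn_Hs hI hM hε hlb hD hκ i j)
    (fun σ hσ y => by rw [hMt]; exact hs σ hσ y)
  have h2 := (Dn_canon' hD hM.pred.pred hI).mul h1
  refine ⟨_, Dn_congr h2 fun σ hσ y => ?_⟩
  simp only [hMt, hMt2]
  have e1 : ∀ k, (dmf F F1 (Hs κ (M σ) y) (dHs κ (M σ) k y) * dHs κ (M σ) k y).trace
      = ∑ i, ∑ j, dmf F F1 (Hs κ (M σ) y) (dHs κ (M σ) k y) i j * dHs κ (M σ) k y i j := fun k =>
    trace_eq_sum _ _ (hs2 k σ hσ y)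
  have e2 : (mf F (Hs κ (M σ) y) * (Hs κ (M σ) y * Hs κ (M σ) y)).trace
      = ∑ i, ∑ j, mf F (Hs κ (M σ) y) i j * ∑ l, Hs κ (M σ) y i l * Hs κ (M σ) y l j := by
    rw [trace_eq_sum _ _ (mul_self_symm (hs σ hσ y))]
    simp only [Matrix.mul_apply]
  have e3 : ∀ l, pd (M σ) l y = M σ y * sN (M σ) l y := by
    intro l
    have hy : M σ y ≠ 0 := (hε.trans_le (hlb σ hσ y)).ne'
    unfold sN
    field_simp
  unfold TTd
  simp only [e1, e2, e3]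
  have e4 : ∑ i, ∑ j, mf F (Hs κ (M σ) y) i j * (∑ l, sN (M σ) l y * dHs κ (M σ) l y i j)
      = ∑ l, sN (M σ) l y * ∑ i, ∑ j, mf F (Hs κ (M σ) y) i j * dHs κ (M σ) l y i j := by
    have := exch (fun l i j => mf F (Hs κ (M σ) y) i j * (sN (M σ) l y * dHs κ (M σ) l y i j))
    simp only [Finset.mul_sum]
    rw [this]
    refine Finset.sum_congr rfl fun l _ => Finset.sum_congr rfl fun i _ =>
      Finset.sum_congr rfl fun j _ => ?_
    ring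
  have e5 : ∑ i, ∑ j, mf F (Hs κ (M σ) y) i j *
      (-(1 / κ) * ∑ l, Hs κ (M σ) y i l * Hs κ (M σ) y l j
        - ∑ l, sN (M σ) l y * dHs κ (M σ) l y i j)
      = -(1 / κ) * (∑ i, ∑ j, mf F (Hs κ (M σ) y) i j *
        ∑ l, Hs κ (M σ) y i l * Hs κ (M σ) y l j)
        - ∑ l, sN (M σ) l y * ∑ i, ∑ j, mf F (Hs κ (M σ) y) i j * dHs κ (M σ) l y i j := by
    rw [← e4, Finset.mul_sum, ← Finset.sum_sub_distrib]
    refine Finset.sum_congr rfl fun i _ => ?_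
    rw [Finset.mul_sum, ← Finset.sum_sub_distrib]
    refine Finset.sum_congr rfl fun j _ => ?_
    ring
  have e6 : ∑ l, M σ y * sN (M σ) l y * ∑ i, ∑ j, mf F (Hs κ (M σ) y) i j * dHs κ (M σ) l y i j
      = M σ y * ∑ l, sN (M σ) l y * ∑ i, ∑ j, mf F (Hs κ (M σ) y) i j * dHs κ (M σ) l y i j := by
    rw [Finset.mul_sum]
    exact Finset.sum_congr rfl fun l _ => by ring
  rw [e5, e6]
  ring

end Vale.Agent.P245.H862
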